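import Vale.Agent.P196.Main

open Pointwise Classical in
theorem Vale.Agent.Results.P196.FPSimpleAmenable.result :
    ∃ (n : ℕ) (R : Finset (FreeGroup (Fin n))),
      Infinite (FreeGroup (Fin n) ⧸ Subgroup.normalClosure (R : Set (FreeGroup (Fin n)))) ∧
      IsSimpleGroup (FreeGroup (Fin n) ⧸ Subgroup.normalClosure (R : Set (FreeGroup (Fin n)))) ∧
      ∀ (K : Finset (FreeGroup (Fin n) ⧸ Subgroup.normalClosure (R : Set (FreeGroup (Fin n)))))
        (ε : ℝ), 0 < ε →
        ∃ D : Finset (FreeGroup (Fin n) ⧸ Subgroup.normalClosure (R : Set (FreeGroup (Fin n)))),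
          D.Nonempty ∧ ∀ g ∈ K, ((symmDiff (D.image fun x => g * x) D).card : ℝ) < ε * D.card := by
  have := Vale.Agent.P196.fp_AA
  obtain ⟨n, s, hs, ⟨e⟩⟩ :=
    Group.IsFinitelyPresented.exists_mulEquiv_presentedGroup (G := Vale.Agent.P196.AA)
  lift s to Finset (FreeGroup (Fin n)) using hs
  have h1 := Vale.Agent.P196.infinite_AA
  have h2 := Vale.Agent.P196.simple_AA
  let f : Vale.Agent.P196.AA ≃* FreeGroup (Fin n) ⧸ Subgroup.normalClosure (s : Set _) := e
  refine ⟨n, s, Infinite.of_injective f f.injective, f.symm.isSimpleGroup, fun K ε hε => ?_⟩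
  obtain ⟨D, hD, h⟩ := Vale.Agent.P196.amenable_AA (K.image f.symm) hε
  refine ⟨D.image f, hD.image f, fun g hg => ?_⟩
  have h3 := h _ (Finset.mem_image_of_mem _ hg)
  rw [Finset.card_image_of_injective _ f.injective]
  refine lt_of_eq_of_lt ?_ h3
  rw [← Finset.card_image_of_injective (symmDiff (f.symm g • D) D) f.injective,
    Finset.image_symmDiff _ _ f.injective, Finset.smul_finset_def, Finset.image_image,
    Finset.image_image]
  congr 4
  funext x
  simp
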